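import Vale.Agent.P235.H265.Proc
import Vale.Agent.P235.H732.Bridge
import Vale.Agent.P235.H154.PathEnv

/-!
P235, bounded treewidth, process row (P3), part 5: the process for an elimination form, and the
path of environments along a root path.
-/

namespace Vale.Agent.P235.H265

open Finset Vale.Agent.P235.H65 Vale.Agent.P235.H263

/-- **the process for an elimination form**: `κ` depends on `k` and `ε` only -/
theorem exists_proc_elim (k : ℕ) {ε : ℝ} (hε : 0 < ε) : ∃ κ : ℝ, 0 < κ ∧
    ∀ (n : ℕ) (A : Fin n → Finset (Fin n)) (d : Fin n → Fin n → ℝ), IsElim k A → IsSep A d →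
      Nonempty (Proc (Fin n) d (par A) (fun t => ¬ (A t).Nonempty) A κ ε) := by
  obtain ⟨κ, hκ, H⟩ := exists_proc k (H732.Bags.LL k) (c1 := 1 / 12) (by norm_num) hε
  refine ⟨κ, hκ, ?_⟩
  intro n A d hA hS
  obtain ⟨η, h1, h2, h3⟩ := H732.slots_elim hA hS
  exact H (Fin n) d (par A) (fun t => (t : ℕ)) (fun t => ¬ (A t).Nonempty) A η hS.nonneg
    (fun t ht => hA.lt t _ (par_mem (not_not.mp ht))) hA.card h1 (fun t _ => h2 t) h3

namespace Proc

variable {V : Type} [DecidableEq V] {d : V → V → ℝ} {par : V → V} {root : V → Prop}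
  {A : V → Finset V} {κ ε : ℝ} (R : Proc V d par root A κ ε)

theorem mean (hd : ∀ p q, 0 ≤ d p q) (t p q : V) :
    ∑ o, R.P t o * |R.g t o p - R.g t o q| ≤ d p q / 2 :=
  DD.mean_abs hd (R.dd t) p q

theorem sure (hd : ∀ p q, 0 ≤ d p q) (t p q : V) {o : R.O} (h : 0 < R.P t o) :
    |R.g t o p - R.g t o q| ≤ d p q :=
  DD.abs_le ⟨R.P_nonneg t, R.P_sum t⟩ hd (R.dd t) o h p q

/-- the path of environments along a root path `q 0, .., q n` (`q i = par (q (i+1))`) -/
noncomputable def env (n : ℕ) (q : ℕ → V) (hq : ∀ i < n, q i = par (q (i + 1)))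
    (hr : ∀ i < n, ¬ root (q (i + 1))) (hne : ∀ i < n, (A (q (i + 1))).Nonempty)
    (hsub : ∀ i < n, A (q (i + 1)) ⊆ insert (q i) (A (q i))) : H154.PathEnv V where
  n := n
  E := fun _ => R.O
  p := fun i => R.P (q i)
  q := fun i => R.Q (q (i + 1))
  A := fun i => A (q i)
  B := fun i => insert (q i) (A (q i))
  z := q
  g := fun i => R.g (q i)
  p_nonneg := fun i o => R.P_nonneg (q i) o
  p_sum := fun i _ => R.P_sum (q i)
  q_nonneg := fun i o o' => R.Q_nonneg _ o o'
  q_left := fun i hi o => by rw [R.Q_left _ (hr i hi), ← hq i hi]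
  q_right := fun i hi o' => R.Q_right _ (hr i hi) o'
  A_sub := fun i hi => hsub i hi
  A_ne := fun i hi => hne i hi
  B_succ := fun i _ => rfl
  avg := fun i hi a ha o' => by
    have h := R.ce (q (i + 1)) (hr i hi) a ha o'
    rw [← hq i hi] at h
    exact h.symm
  ord := fun i hi a ha b hb o' => by
    have h := fun o hQ => R.ord (q (i + 1)) (hr i hi) o o' hQ a ha b hb
    simp only [← hq i hi] at h
    rcases le_total (R.g (q (i + 1)) o' a) (R.g (q (i + 1)) o' b) with h1 | h1
    · exact Or.inl fun o ho => (h o ho.ne').mpr h1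
    · have h' := fun o hQ => R.ord (q (i + 1)) (hr i hi) o o' hQ b hb a ha
      simp only [← hq i hi] at h'
      exact Or.inr fun o ho => (h' o ho.ne').mpr h1

end Proc

end Vale.Agent.P235.H265
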