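import Vale.Agent.P235.H65.Inj

/-!
P235, bounded treewidth, process row (P3), part 1: the grid, mixing of coordinates, averages over
one coordinate.
-/

namespace Vale.Agent.P235.H265

open Finset Vale.Agent.P235.H65

/-- `m` equidistant symmetric values in `[-u, u]` -/
noncomputable def gv (m : ℕ) (u : ℝ) (s : Fin m) : ℝ := u * (2 * (s : ℝ) / ((m : ℝ) - 1) - 1)

theorem gv_abs {m : ℕ} (hm : 2 ≤ m) {u : ℝ} (hu : 0 ≤ u) (s : Fin m) : |gv m u s| ≤ u := by
  unfold gv
  have hm1 : (0 : ℝ) < (m : ℝ) - 1 := by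
    have : (2 : ℝ) ≤ m := by exact_mod_cast hm
    linarith
  have hs : (s : ℝ) ≤ (m : ℝ) - 1 := by
    have h1 : (s : ℕ) + 1 ≤ m := s.2
    have : ((s : ℕ) : ℝ) + 1 ≤ m := by exact_mod_cast h1
    linarith
  have hs0 : (0 : ℝ) ≤ (s : ℝ) := Nat.cast_nonneg _
  have h1 : 2 * (s : ℝ) / ((m : ℝ) - 1) ≤ 2 := by
    rw [div_le_iff₀ hm1]; linarith
  have h0 : 0 ≤ 2 * (s : ℝ) / ((m : ℝ) - 1) := by positivity
  rw [abs_mul, abs_of_nonneg hu]
  have : |2 * (s : ℝ) / ((m : ℝ) - 1) - 1| ≤ 1 := by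
    rw [abs_le]; constructor <;> linarith
  calc u * |2 * (s : ℝ) / ((m : ℝ) - 1) - 1| ≤ u * 1 := mul_le_mul_of_nonneg_left this hu
    _ = u := mul_one u

theorem gv_rev {m : ℕ} (hm : 2 ≤ m) (u : ℝ) (s : Fin m) : gv m u (Fin.rev s) = - gv m u s := by
  unfold gv
  have hm1 : (0 : ℝ) < (m : ℝ) - 1 := by
    have : (2 : ℝ) ≤ m := by exact_mod_cast hm
    linarith
  have h : ((Fin.rev s : Fin m) : ℝ) = (m : ℝ) - 1 - (s : ℝ) := by
    have h1 : (s : ℕ) + 1 ≤ m := s.2
    rw [Fin.val_rev, Nat.cast_sub h1]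
    push_cast
    ring
  rw [h]
  field_simp
  ring

theorem gv_sum {m : ℕ} (hm : 2 ≤ m) (u : ℝ) : ∑ s, gv m u s = 0 := by
  have h : ∑ s, gv m u (Fin.rev s) = ∑ s, gv m u s := by
    exact Equiv.sum_comp (Fin.revPerm) (fun s => gv m u s)
  have h2 : ∑ s, gv m u (Fin.rev s) = - ∑ s, gv m u s := by
    rw [← Finset.sum_neg_distrib]
    exact Finset.sum_congr rfl fun s _ => gv_rev hm u s
  linarith

theorem gv_gap {m : ℕ} (hm : 2 ≤ m) {u : ℝ} (hu : 0 ≤ u) {s s' : Fin m} (h : s ≠ s') :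
    2 * u / ((m : ℝ) - 1) ≤ |gv m u s - gv m u s'| := by
  have hm1 : (0 : ℝ) < (m : ℝ) - 1 := by
    have : (2 : ℝ) ≤ m := by exact_mod_cast hm
    linarith
  have e : gv m u s - gv m u s' = 2 * u / ((m : ℝ) - 1) * ((s : ℝ) - (s' : ℝ)) := by
    unfold gv
    field_simp
    ring
  have hne : (s : ℕ) ≠ (s' : ℕ) := fun h' => h (Fin.ext h')
  have h1 : (1 : ℝ) ≤ |(s : ℝ) - (s' : ℝ)| := by
    have h2 : (1 : ℤ) ≤ |((s : ℕ) : ℤ) - ((s' : ℕ) : ℤ)| := by
      apply Int.one_le_abs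
      intro h0
      apply hne
      omega
    have h3 : ((1 : ℤ) : ℝ) ≤ ((|((s : ℕ) : ℤ) - ((s' : ℕ) : ℤ)| : ℤ) : ℝ) := by exact_mod_cast h2
    rw [Int.cast_abs] at h3
    push_cast at h3
    exact h3
  have hc : 0 ≤ 2 * u / ((m : ℝ) - 1) := by positivity
  rw [e, abs_mul, abs_of_nonneg hc]
  calc 2 * u / ((m : ℝ) - 1) = 2 * u / ((m : ℝ) - 1) * 1 := (mul_one _).symm
    _ ≤ _ := mul_le_mul_of_nonneg_left h1 hc

section mix

variable {L : ℕ} {T : Type*}

/-- `x` on `Sl`, `y` off `Sl` -/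
def mix (Sl : Finset (Fin L)) (x y : Fin L → T) : Fin L → T := fun j => if j ∈ Sl then x j else y j

theorem mix_mem {Sl : Finset (Fin L)} {x y : Fin L → T} {j : Fin L} (h : j ∈ Sl) :
    mix Sl x y j = x j := if_pos h

theorem mix_notMem {Sl : Finset (Fin L)} {x y : Fin L → T} {j : Fin L} (h : j ∉ Sl) :
    mix Sl x y j = y j := if_neg h

theorem mix_mix_left (Sl : Finset (Fin L)) (x y z : Fin L → T) :
    mix Sl (mix Sl x y) z = mix Sl x z := by
  funext j
  by_cases h : j ∈ Sl <;> simp [mix, h]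

theorem mix_mix_right (Sl : Finset (Fin L)) (x y z : Fin L → T) :
    mix Sl x (mix Sl y z) = mix Sl x z := by
  funext j
  by_cases h : j ∈ Sl <;> simp [mix, h]

theorem mix_self (Sl : Finset (Fin L)) (x : Fin L → T) : mix Sl x x = x := by
  funext j
  by_cases h : j ∈ Sl <;> simp [mix, h]

/-- the swap of two independent configurations off `Sl` -/
def swapE (Sl : Finset (Fin L)) : ((Fin L → T) × (Fin L → T)) ≃ ((Fin L → T) × (Fin L → T)) where
  toFun p := (mix Sl p.1 p.2, mix Sl p.2 p.1)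
  invFun p := (mix Sl p.1 p.2, mix Sl p.2 p.1)
  left_inv := by
    rintro ⟨x, y⟩
    simp only [mix_mix_left, mix_mix_right, mix_self]
  right_inv := by
    rintro ⟨x, y⟩
    simp only [mix_mix_left, mix_mix_right, mix_self]

theorem sum_swap [Fintype T] (Sl : Finset (Fin L)) (f : (Fin L → T) → (Fin L → T) → ℝ) :
    ∑ x, ∑ z, f (mix Sl x z) (mix Sl z x) = ∑ x, ∑ z, f x z := by
  rw [← Fintype.sum_prod_type' (f := f),
    ← Fintype.sum_prod_type' (f := fun x z => f (mix Sl x z) (mix Sl z x))]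
  exact Equiv.sum_comp (swapE (T := T) Sl) (fun p => f p.1 p.2)

/-- averaging over one coordinate -/
theorem sum_update [Fintype T] (j : Fin L) (f : (Fin L → T) → ℝ) :
    ∑ x, ∑ s : T, f (Function.update x j s) = (Fintype.card T : ℝ) * ∑ x, f x := by
  classical
  have h2 : ∑ x, ∑ s : T, f (Function.update x j s) = ∑ x : Fin L → T, ∑ _s : T, f x := by
    rw [← Fintype.sum_prod_type' (f := fun x s => f (Function.update x j s)),
      ← Fintype.sum_prod_type' (f := fun (x : Fin L → T) (_s : T) => f x)]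
    let e : ((Fin L → T) × T) ≃ ((Fin L → T) × T) :=
      { toFun := fun p => (Function.update p.1 j p.2, p.1 j)
        invFun := fun p => (Function.update p.1 j p.2, p.1 j)
        left_inv := by
          rintro ⟨x, s⟩
          simp
        right_inv := by
          rintro ⟨x, s⟩
          simp }
    exact Equiv.sum_comp e (fun p => f p.1)
  rw [h2]
  simp only [Finset.sum_const, Finset.card_univ, nsmul_eq_mul]
  rw [← Finset.mul_sum]

end mix

end Vale.Agent.P235.H265
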