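import Vale.Agent.P235.H265.Inv
import Vale.Agent.P235.H65.Avg
import Vale.Agent.P235.H991.Slots

/-!
P235, bounded treewidth, process row (P3), part 4: the process over a rooted tree.
-/

namespace Vale.Agent.P235.H265

open Finset Vale.Agent.P235.H65

/-- **the process** over a rooted tree whose nodes are the vertices: `P t` is the law of the
environment at `t`, `g t` the random function on all of `V`, `Q t` the joint law of the
environments at `par t` and at `t`. -/
structure Proc (V : Type) [DecidableEq V] (d : V → V → ℝ) (par : V → V) (root : V → Prop)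
    (A : V → Finset V) (κ ε : ℝ) where
  /-- environments -/
  O : Type
  [fO : Fintype O]
  /-- laws -/
  P : V → O → ℝ
  /-- random functions -/
  g : V → O → V → ℝ
  /-- pair laws -/
  Q : V → O → O → ℝ
  P_nonneg : ∀ t o, 0 ≤ P t o
  P_sum : ∀ t, ∑ o, P t o = 1
  Q_nonneg : ∀ t o o', 0 ≤ Q t o o'
  Q_left : ∀ t, ¬ root t → ∀ o, ∑ o', Q t o o' = P (par t) o
  Q_right : ∀ t, ¬ root t → ∀ o', ∑ o, Q t o o' = P t o'
  /-- on the adhesion the new function is the conditional expectation of the old one -/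
  ce : ∀ t, ¬ root t → ∀ a ∈ A t, ∀ o', ∑ o, Q t o o' * g (par t) o a = P t o' * g t o' a
  /-- the weak order on the adhesion is kept -/
  ord : ∀ t, ¬ root t → ∀ o o', Q t o o' ≠ 0 → ∀ a ∈ A t, ∀ b ∈ A t,
    (g (par t) o a ≤ g (par t) o b ↔ g t o' a ≤ g t o' b)
  /-- convex order -/
  dd : ∀ t, DD (P t) d (g t)
  /-- anticoncentration -/
  ac : ∀ t, ∀ p ∈ insert t (A t), ∀ q ∈ insert t (A t),
    ∑ o, (if |g t o p - g t o q| < κ * d p q then P t o else 0) ≤ ε

attribute [instance] Proc.fO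

theorem exists_enum {V : Type} (A : Finset V) (t : V) {k : ℕ} (hA : A.card ≤ k) :
    ∃ e : Fin k → V, ∀ a ∈ A, ∃ i, e i = a := by
  classical
  refine ⟨fun i => if h : (i : ℕ) < A.card then (A.equivFin.symm ⟨i, h⟩ : V) else t, ?_⟩
  intro a ha
  refine ⟨⟨(A.equivFin ⟨a, ha⟩ : ℕ), lt_of_lt_of_le (A.equivFin ⟨a, ha⟩).2 hA⟩, ?_⟩
  simp

/-- the invariant of the states -/
structure Good {V : Type} {k L m : ℕ} (d : V → V → ℝ) (u ε : ℝ) (ηt : Fin L → V → ℝ)
    (S : St V k L m) : Prop where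
  w_nonneg : ∀ c, 0 ≤ S.w c
  w_sum : ∑ c, S.w c = 1
  dd : DD S.P d (S.g u)
  bad : ∀ j, S.bad j ≤ ε / 2
  eta : S.η = ηt

/-- the trivial state -/
noncomputable def St.triv (V : Type) (k L m : ℕ) : St V k L m where
  w := fun c => if c = (fun _ _ _ => false, fun _ => false) then 1 else 0
  G := fun _ _ => 0
  H := fun _ _ => true
  η := fun _ _ => 0

theorem St.triv_w_nonneg {V : Type} {k L m : ℕ} (c : Cell k L m) :
    0 ≤ (St.triv V k L m).w c := by
  unfold St.triv
  dsimp only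
  split_ifs <;> norm_num

theorem St.triv_w_sum {V : Type} {k L m : ℕ} : ∑ c, (St.triv V k L m).w c = 1 := by
  unfold St.triv
  dsimp only
  rw [Finset.sum_ite_eq']
  simp

theorem St.triv_dd {V : Type} {k L m : ℕ} (hm : 0 < m) {d : V → V → ℝ} (hd : ∀ p q, 0 ≤ d p q)
    (u : ℝ) : DD (St.triv V k L m).P d ((St.triv V k L m).g u) := by
  intro p q t
  have hg : ∀ o v, (St.triv V k L m).g u o v = 0 := by
    intro o v
    unfold St.g St.triv
    simp
  simp only [hg, sub_self, zero_sub, abs_neg]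
  rw [← Finset.sum_mul, St.sum_P hm St.triv_w_sum, one_mul]
  exact abs_le_hh (hd p q)

theorem St.triv_bad {V : Type} {k L m : ℕ} (j : Fin L) : (St.triv V k L m).bad j = 0 := by
  unfold St.bad St.triv
  simp

/-- the constants -/
structure Consts (k L : ℕ) (c1 ε : ℝ) where
  m : ℕ
  β : ℝ
  u : ℝ
  hm : 2 ≤ m
  hmε : (m : ℝ)⁻¹ ≤ ε / 2
  hβ0 : 0 < β
  hβ : (Fintype.card (Cell k L m) : ℝ) * β ≤ ε / 2
  hu0 : 0 < u
  hu : 4 * u ≤ β * ((m : ℝ) ^ L)⁻¹

theorem exists_consts (k L : ℕ) (c1 : ℝ) {ε : ℝ} (hε : 0 < ε) : Nonempty (Consts k L c1 ε) := by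
  obtain ⟨m₀, hm₀⟩ := exists_nat_ge (2 / ε)
  let m : ℕ := m₀ + 2
  have hmR : (2 / ε : ℝ) ≤ m := by
    have : (m : ℝ) = m₀ + 2 := by simp [m]
    rw [this]; linarith
  have hmpos : (0 : ℝ) < m := lt_of_lt_of_le (by positivity) hmR
  have hmε : (m : ℝ)⁻¹ ≤ ε / 2 := by
    rw [inv_le_comm₀ hmpos (by positivity)]
    rw [inv_div]
    exact hmR
  let N : ℝ := Fintype.card (Cell k L m)
  have hN : 0 < N := by
    have : 0 < Fintype.card (Cell k L m) := Fintype.card_pos
    simp only [N]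
    exact_mod_cast this
  let β : ℝ := ε / 2 / N
  have hβ0 : 0 < β := by positivity
  refine ⟨⟨m, β, β * ((m : ℝ) ^ L)⁻¹ / 4, by simp [m], hmε, hβ0, ?_, by positivity, ?_⟩⟩
  · have : N * β = ε / 2 := by
      simp only [β]
      field_simp
    exact this.le
  · linarith

/-- one step of the process -/
theorem Good.step {V : Type} {k L : ℕ} {c1 ε : ℝ} (C : Consts k L c1 ε) {d : V → V → ℝ}
    (hd : ∀ p q, 0 ≤ d p q) {ηp ηt : Fin L → V → ℝ} {S : St V k L C.m}
    (hS : Good d C.u ε ηp S) (hlip : ∀ j p q, |ηt j p - ηt j q| ≤ d p q)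
    (Sl : Finset (Fin L)) (hSl : ∀ j, j ∉ Sl → ηt j = ηp j) (e : Fin k → V) :
    Good d C.u ε ηt (S.next C.u Sl e C.β ηt) := by
  have hm0 : 0 < C.m := by have := C.hm; omega
  refine ⟨fun c => S.w'_nonneg hS.w_nonneg c, S.sum_w' hm0 hS.w_sum, ?_, ?_, ?_⟩
  · exact St.dd_next C.hm hS.w_nonneg hS.w_sum hd C.hu0.le C.hu (fun j _ => hlip j) hS.dd
  · intro j
    by_cases hj : j ∈ Sl
    · exact (St.bad_next_mem hj C.hβ0.le le_rfl).trans C.hβ
    · rw [St.bad_next_notMem hm0 hj]
      exact hS.bad j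
  · funext j
    change (if j ∈ Sl then ηt j else S.η j) = ηt j
    split_ifs with hj
    · rfl
    · rw [hS.eta, hSl j hj]

/-- **existence of the process**: the constant `κ` depends on `k`, `L`, `c1`, `ε` only -/
theorem exists_proc (k L : ℕ) {c1 ε : ℝ} (hc1 : 0 < c1) (hε : 0 < ε) : ∃ κ : ℝ, 0 < κ ∧
    ∀ (V : Type) [DecidableEq V] (d : V → V → ℝ) (par : V → V) (rk : V → ℕ) (root : V → Prop)
      (A : V → Finset V) (η : V → Fin L → V → ℝ),
      (∀ p q, 0 ≤ d p q) → (∀ t, ¬ root t → rk (par t) < rk t) → (∀ t, (A t).card ≤ k) →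
      (∀ t j p q, |η t j p - η t j q| ≤ d p q) →
      (∀ t, ¬ root t → ∀ j, η t j = η (par t) j ∨ ∀ a ∈ A t, η t j a = 0) →
      (∀ t, ∀ p ∈ insert t (A t), ∀ q ∈ insert t (A t), ∃ j, c1 * d p q ≤ |η t j p - η t j q|) →
      Nonempty (Proc V d par root A κ ε) := by
  classical
  obtain ⟨C⟩ := exists_consts k L c1 hε
  have hm0 : 0 < C.m := by have := C.hm; omega
  have hm1 : (0 : ℝ) < (C.m : ℝ) - 1 := by
    have : (2 : ℝ) ≤ C.m := by exact_mod_cast C.hm
    linarith
  have hu0 := C.hu0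
  refine ⟨c1 * C.u / ((C.m : ℝ) - 1), by positivity, ?_⟩
  intro V _ d par rk root A η hd hrk hA hlip hfresh hcap
  choose e he using fun t => exists_enum (A t) t (hA t)
  let Sl : V → Finset (Fin L) := fun t => univ.filter fun j => η t j ≠ η (par t) j
  have hSl : ∀ t j, j ∉ Sl t → η t j = η (par t) j := by
    intro t j hj
    by_contra h
    exact hj (mem_filter.mpr ⟨mem_univ _, h⟩)
  have hSlA : ∀ t, ¬ root t → ∀ a ∈ A t, ∀ j ∈ Sl t, η t j a = 0 := by
    intro t ht a ha j hj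
    rcases hfresh t ht j with h | h
    · exact absurd h (mem_filter.mp hj).2
    · exact h a ha
  obtain ⟨F, hF, hrel⟩ := H991.tree_rec par rk root hrk
    (fun t (S : St V k L C.m) => Good d C.u ε (η t) S)
    (fun t S S' => S' = S.next C.u (Sl t) (e t) C.β (η t))
    (by
      intro t _
      refine ⟨(St.triv V k L C.m).next C.u univ (e t) C.β (η t), ?_⟩
      refine Good.step C hd (ηp := fun _ _ => 0) ?_ (hlip t) univ
        (fun j hj => absurd (mem_univ j) hj) (e t)
      exact ⟨St.triv_w_nonneg, St.triv_w_sum, St.triv_dd hm0 hd C.u,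
        fun j => by rw [St.triv_bad]; positivity, rfl⟩)
    (by
      intro t _ S hS
      exact ⟨S.next C.u (Sl t) (e t) C.β (η t),
        Good.step C hd hS (hlip t) (Sl t) (hSl t) (e t), rfl⟩)
  refine ⟨{
    O := Om k L C.m
    P := fun t => (F t).P
    g := fun t => (F t).g C.u
    Q := fun t => (F (par t)).Q C.u (Sl t) (e t)
    P_nonneg := fun t o => St.P_nonneg (hF t).w_nonneg o
    P_sum := fun t => St.sum_P hm0 (hF t).w_sum
    Q_nonneg := fun t o o' => St.Q_nonneg (hF (par t)).w_nonneg o o'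
    Q_left := fun t _ o => St.sum_Q_one hm0 o
    Q_right := fun t ht o' => by
      rw [hrel t ht]
      exact St.sum_Q_snd o'
    ce := fun t ht a ha o' => by
      rw [hrel t ht]
      exact St.ce (hF (par t)).w_nonneg (hSlA t ht a ha) o'
    ord := fun t ht o o' hQ a ha b hb => by
      rw [hrel t ht]
      exact St.ord (hF (par t)).w_nonneg (hSlA t ht a ha) (hSlA t ht b hb) (he t a ha) (he t b hb)
        hQ
    dd := fun t => (hF t).dd
    ac := fun t p hp q hq => by
      obtain ⟨j, hj⟩ := hcap t p hp q hq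
      have h := St.anti (S := F t) C.hm (hF t).w_nonneg (hF t).w_sum C.hu0.le (p := p) (q := q)
        (D := d p q) (c1 := c1) (j := j) (by rw [(hF t).eta]; exact hj)
      have h2 := (hF t).bad j
      have h3 := C.hmε
      linarith }⟩

namespace Proc

variable {V : Type} [DecidableEq V] {d : V → V → ℝ} {par : V → V} {root : V → Prop}
  {A : V → Finset V} {κ ε : ℝ} (R : Proc V d par root A κ ε)

/-- a bound for all values, on a finite tree -/
theorem exists_bound [Finite V] : ∃ K : ℝ, 0 < K ∧ ∀ t o p, |R.g t o p| ≤ K := by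
  classical
  have := Fintype.ofFinite V
  have h : ∃ K : ℝ, ∀ x : V × R.O × V, |R.g x.1 x.2.1 x.2.2| ≤ K :=
    ⟨∑ x : V × R.O × V, |R.g x.1 x.2.1 x.2.2|, fun x =>
      Finset.single_le_sum (f := fun x : V × R.O × V => |R.g x.1 x.2.1 x.2.2|)
        (fun _ _ => abs_nonneg _) (Finset.mem_univ x)⟩
  obtain ⟨K, hK⟩ := h
  exact ⟨max K 1, lt_of_lt_of_le one_pos (le_max_right _ _), fun t o p =>
    (hK (t, o, p)).trans (le_max_left _ _)⟩

end Proc

end Vale.Agent.P235.H265
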