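import Vale.Agent.P235.H265.Grid

/-!
P235, bounded treewidth, process row (P3), part 2: abstract transition of laws (joint law `Q`,
conditional expectation, order), the state and its transition.
-/

namespace Vale.Agent.P235.H265

open Finset Vale.Agent.P235.H65

section joint

variable {Ω Ω' V : Type*} [Fintype Ω] [Fintype Ω']

/-- class DD is kept by conditional expectations (joint law form) -/
theorem DD.joint {P : Ω → ℝ} {P' : Ω' → ℝ} (Q : Ω → Ω' → ℝ) (hQ : ∀ o o', 0 ≤ Q o o')
    (h1 : ∀ o, ∑ o', Q o o' = P o) (h2 : ∀ o', ∑ o, Q o o' = P' o') {d : V → V → ℝ}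
    {g : Ω → V → ℝ} {g' : Ω' → V → ℝ}
    (hce : ∀ v o', ∑ o, Q o o' * g o v = P' o' * g' o' v) (hg : DD P d g) : DD P' d g' := by
  intro p q t
  refine le_trans ?_ (hg p q t)
  have hP' : ∀ o', 0 ≤ P' o' := fun o' => by
    rw [← h2]; exact sum_nonneg fun o _ => hQ o o'
  have h3 : ∀ o', P' o' * |g' o' p - g' o' q - t| ≤ ∑ o, Q o o' * |g o p - g o q - t| := by
    intro o'
    have e : P' o' * (g' o' p - g' o' q - t) = ∑ o, Q o o' * (g o p - g o q - t) := by
      have : ∀ o, Q o o' * (g o p - g o q - t) = Q o o' * g o p - Q o o' * g o q - Q o o' * t := by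
        intro o; ring
      simp_rw [this]
      rw [sum_sub_distrib, sum_sub_distrib, hce, hce, ← sum_mul, h2]
      ring
    calc P' o' * |g' o' p - g' o' q - t| = |P' o' * (g' o' p - g' o' q - t)| := by
          rw [abs_mul, abs_of_nonneg (hP' o')]
      _ ≤ ∑ o, |Q o o' * (g o p - g o q - t)| := by rw [e]; exact abs_sum_le_sum_abs _ _
      _ = ∑ o, Q o o' * |g o p - g o q - t| := by
          refine sum_congr rfl fun o _ => ?_
          rw [abs_mul, abs_of_nonneg (hQ o o')]
  calc ∑ o', P' o' * |g' o' p - g' o' q - t| ≤ ∑ o', ∑ o, Q o o' * |g o p - g o q - t| :=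
        sum_le_sum fun o' _ => h3 o'
    _ = ∑ o, ∑ o', Q o o' * |g o p - g o q - t| := sum_comm
    _ = ∑ o, P o * |g o p - g o q - t| := by
        refine sum_congr rfl fun o _ => ?_
        rw [← sum_mul, h1]

omit [Fintype Ω'] in
/-- the order of two functions is kept by conditional expectations on fibres of constant order -/
theorem ord_joint {P' : Ω' → ℝ} (Q : Ω → Ω' → ℝ) (hQ : ∀ o o', 0 ≤ Q o o')
    (h2 : ∀ o', ∑ o, Q o o' = P' o') {a b : Ω → ℝ} {a' b' : Ω' → ℝ}
    (ha : ∀ o', ∑ o, Q o o' * a o = P' o' * a' o') (hb : ∀ o', ∑ o, Q o o' * b o = P' o' * b' o')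
    {o' : Ω'} {R : Prop} (hR : ∀ o, Q o o' ≠ 0 → (a o ≤ b o ↔ R)) (hpos : P' o' ≠ 0) :
    a' o' ≤ b' o' ↔ R := by
  have hP : 0 < P' o' := lt_of_le_of_ne (by rw [← h2]; exact sum_nonneg fun o _ => hQ o o')
    (Ne.symm hpos)
  constructor
  · intro hle
    by_contra hnR
    have hlt : ∑ o, Q o o' * b o < ∑ o, Q o o' * a o := by
      have hex : ∃ o, Q o o' ≠ 0 := by
        by_contra hall
        simp only [not_exists, not_not] at hall
        apply hpos
        rw [← h2]
        exact sum_eq_zero fun o _ => hall o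
      obtain ⟨o₀, ho₀⟩ := hex
      refine sum_lt_sum (fun o _ => ?_) ⟨o₀, mem_univ _, ?_⟩
      · by_cases h0 : Q o o' = 0
        · simp [h0]
        · have : b o < a o := by
            by_contra hba
            exact hnR ((hR o h0).mp (not_lt.mp hba))
          exact mul_le_mul_of_nonneg_left this.le (hQ o o')
      · have hpos' : 0 < Q o₀ o' := lt_of_le_of_ne (hQ _ _) (Ne.symm ho₀)
        have : b o₀ < a o₀ := by
          by_contra hba
          exact hnR ((hR o₀ ho₀).mp (not_lt.mp hba))
        exact mul_lt_mul_of_pos_left this hpos'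
    rw [ha, hb] at hlt
    have := lt_of_mul_lt_mul_left hlt hP.le
    linarith
  · intro hRt
    have hle : ∑ o, Q o o' * a o ≤ ∑ o, Q o o' * b o := by
      refine sum_le_sum fun o _ => ?_
      by_cases h0 : Q o o' = 0
      · simp [h0]
      · exact mul_le_mul_of_nonneg_left ((hR o h0).mpr hRt) (hQ o o')
    rw [ha, hb] at hle
    exact le_of_mul_le_mul_left hle hP

end joint

/-- the cells: a value of the signature -/
abbrev Cell (k L m : ℕ) := ((Fin L → Fin m) → Fin k → Fin k → Bool) × (Fin L → Bool)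

/-- the environments, the same type at every node -/
abbrev Om (k L m : ℕ) := Cell k L m × (Fin L → Fin m)

/-- a state of the process -/
structure St (V : Type) (k L m : ℕ) where
  w : Cell k L m → ℝ
  G : Cell k L m → V → ℝ
  H : Fin L → Cell k L m → Bool
  η : Fin L → V → ℝ

namespace St

variable {V : Type} {k L m : ℕ} (S : St V k L m)

/-- the law of the environment: cells times independent uniform grids -/
noncomputable def P (o : Om k L m) : ℝ := S.w o.1 * ((m : ℝ) ^ L)⁻¹

/-- the random function -/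
noncomputable def g (u : ℝ) (o : Om k L m) (v : V) : ℝ :=
  S.G o.1 v + ∑ j, (if S.H j o.1 = true then gv m u (o.2 j) * S.η j v else 0)

variable (u : ℝ) (Sl : Finset (Fin L)) (e : Fin k → V) (β : ℝ) (η' : Fin L → V → ℝ)

open Classical in
/-- the signature of an environment: for all values of the surviving grids, the weak order of the
function on the adhesion; and the indicators -/
noncomputable def sig (o : Om k L m) : Cell k L m :=
  (fun y a b => decide (S.g u (o.1, mix Sl o.2 y) (e a) ≤ S.g u (o.1, mix Sl o.2 y) (e b)),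
    fun j => S.H j o.1)

theorem sig_mix (c : Cell k L m) (x y : Fin L → Fin m) :
    S.sig u Sl e (c, mix Sl x y) = S.sig u Sl e (c, x) := by
  unfold sig
  simp only [mix_mix_left]

/-- the part of the random function which is averaged: base function and refreshed slots -/
noncomputable def g1 (o : Om k L m) (v : V) : ℝ :=
  S.G o.1 v + ∑ j ∈ Sl, (if S.H j o.1 = true then gv m u (o.2 j) * S.η j v else 0)

open Classical in
/-- the new weights of the cells -/
noncomputable def w' (c' : Cell k L m) : ℝ := ∑ o, if S.sig u Sl e o = c' then S.P o else 0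

open Classical in
/-- the new base function -/
noncomputable def G' (c' : Cell k L m) (v : V) : ℝ :=
  (∑ o, if S.sig u Sl e o = c' then S.P o * S.g1 u Sl o v else 0) / S.w' u Sl e c'

open Classical in
/-- the state after the transition: refreshed slots `Sl` get the new functions `η'` -/
noncomputable def next : St V k L m where
  w := S.w' u Sl e
  G := S.G' u Sl e
  H := fun j c' => if j ∈ Sl then decide (β ≤ S.w' u Sl e c') else c'.2 j
  η := fun j => if j ∈ Sl then η' j else S.η j

open Classical in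
/-- the state after the transition before the injection -/
noncomputable def nextG (T : Finset (Fin L)) (o : Om k L m) (v : V) : ℝ :=
  S.G' u Sl e o.1 v + ∑ j ∈ univ \ Sl, (if o.1.2 j = true then gv m u (o.2 j) * S.η j v else 0)
    + ∑ j ∈ T, (if β ≤ S.w' u Sl e o.1 then gv m u (o.2 j) * η' j v else 0)

theorem next_g (o : Om k L m) (v : V) :
    (S.next u Sl e β η').g u o v = S.nextG u Sl e β η' Sl o v := by
  classical
  unfold g nextG next
  dsimp only
  rw [add_assoc]
  congr 1
  rw [← Finset.sum_sdiff (Finset.subset_univ Sl)]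
  congr 1
  · refine sum_congr rfl fun j hj => ?_
    have : j ∉ Sl := (mem_sdiff.mp hj).2
    simp [this]
  · refine sum_congr rfl fun j hj => ?_
    simp [hj]

open Classical in
/-- the joint law of the old and the new environment -/
noncomputable def Q (o o' : Om k L m) : ℝ :=
  if S.sig u Sl e o = o'.1 then
    S.P o * (((m : ℝ) ^ L)⁻¹ * ∑ z : Fin L → Fin m, if mix Sl z o.2 = o'.2 then (1 : ℝ) else 0)
  else 0

variable {S u Sl e β η'}

theorem P_nonneg (hw : ∀ c, 0 ≤ S.w c) (o : Om k L m) : 0 ≤ S.P o :=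
  mul_nonneg (hw _) (by positivity)

theorem card_inv (hm : 0 < m) : ((m : ℝ) ^ L)⁻¹ * ∑ _z : Fin L → Fin m, (1 : ℝ) = 1 := by
  rw [Finset.sum_const, Finset.card_univ, Fintype.card_fun, Fintype.card_fin, Fintype.card_fin,
    nsmul_eq_mul]
  push_cast
  rw [mul_one]
  have : (0 : ℝ) < m := by exact_mod_cast hm
  exact inv_mul_cancel₀ (by positivity)

theorem sum_P (hm : 0 < m) (h1 : ∑ c, S.w c = 1) : ∑ o, S.P o = 1 := by
  unfold P
  rw [Fintype.sum_prod_type]
  have : ∀ c, ∑ _x : Fin L → Fin m, S.w c * ((m : ℝ) ^ L)⁻¹ = S.w c := fun c => by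
    have := card_inv (L := L) hm
    rw [Finset.mul_sum] at this
    rw [← Finset.mul_sum]
    simp only [mul_one] at this
    rw [this, mul_one]
  simp_rw [this]
  exact h1

theorem Q_nonneg (hw : ∀ c, 0 ≤ S.w c) (o o' : Om k L m) : 0 ≤ S.Q u Sl e o o' := by
  unfold Q
  split_ifs
  · refine mul_nonneg (S.P_nonneg hw o) (mul_nonneg (by positivity) (sum_nonneg fun z _ => ?_))
    split_ifs <;> norm_num
  · exact le_rfl

/-- sums over the new environment -/
theorem sum_Q_right (o : Om k L m) (F : Om k L m → ℝ) :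
    ∑ o', S.Q u Sl e o o' * F o' =
      S.P o * (((m : ℝ) ^ L)⁻¹ * ∑ z, F (S.sig u Sl e o, mix Sl z o.2)) := by
  classical
  have h1 : ∀ o' : Om k L m, S.Q u Sl e o o' * F o' = ∑ z : Fin L → Fin m,
      (if o' = (S.sig u Sl e o, mix Sl z o.2) then
        S.P o * ((m : ℝ) ^ L)⁻¹ * F (S.sig u Sl e o, mix Sl z o.2) else 0) := by
    rintro ⟨c', x'⟩
    unfold Q
    by_cases hc : S.sig u Sl e o = c'
    · subst hc
      rw [if_pos rfl, Finset.mul_sum, Finset.mul_sum, Finset.sum_mul]
      refine sum_congr rfl fun z _ => ?_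
      by_cases hz : mix Sl z o.2 = x'
      · subst hz
        simp
      · have hz' : x' ≠ mix Sl z o.2 := fun h => hz h.symm
        simp [hz, hz']
    · have : ∀ z : Fin L → Fin m, ¬ ((c', x') : Om k L m) = (S.sig u Sl e o, mix Sl z o.2) := by
        intro z h
        exact hc (Prod.ext_iff.mp h).1.symm
      rw [if_neg hc, zero_mul]
      symm
      exact sum_eq_zero fun z _ => if_neg (this z)
  simp_rw [h1]
  rw [Finset.sum_comm, Finset.mul_sum, Finset.mul_sum]
  refine sum_congr rfl fun z _ => ?_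
  refine (Fintype.sum_eq_single (S.sig u Sl e o, mix Sl z o.2)
    (fun x hx => if_neg hx)).trans ?_
  rw [if_pos rfl]
  ring

theorem sum_Q_one (hm : 0 < m) (o : Om k L m) : ∑ o', S.Q u Sl e o o' = S.P o := by
  have h := S.sum_Q_right (u := u) (Sl := Sl) (e := e) o (fun _ => 1)
  simp only [mul_one] at h
  rw [h, card_inv hm, mul_one]

open Classical in
/-- sums over the old environment -/
theorem sum_Q_left (o' : Om k L m) (F : Om k L m → ℝ) :
    ∑ o, S.Q u Sl e o o' * F o =
      ((m : ℝ) ^ L)⁻¹ * ∑ o, if S.sig u Sl e o = o'.1 then S.P o * F (o.1, mix Sl o.2 o'.2)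
        else 0 := by
  have hL := Fintype.sum_prod_type (f := fun o : Om k L m => S.Q u Sl e o o' * F o)
  have hR := Fintype.sum_prod_type (f := fun o : Om k L m =>
    if S.sig u Sl e o = o'.1 then S.P o * F (o.1, mix Sl o.2 o'.2) else 0)
  rw [hL, hR, Finset.mul_sum]
  refine sum_congr rfl fun c _ => ?_
  let h : (Fin L → Fin m) → (Fin L → Fin m) → ℝ := fun a b =>
    if b = o'.2 then (if S.sig u Sl e (c, a) = o'.1 then
      ((m : ℝ) ^ L)⁻¹ * (S.P (c, a) * F (c, mix Sl a b)) else 0) else 0
  have h1 : ∀ x, S.Q u Sl e (c, x) o' * F (c, x) = ∑ z, h (mix Sl x z) (mix Sl z x) := by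
    intro x
    unfold Q
    simp only [h, sig_mix, mix_mix_left, mix_mix_right, mix_self]
    have hP : ∀ z, S.P (c, mix Sl x z) = S.P (c, x) := fun z => rfl
    simp only [hP]
    split_ifs with hc
    · rw [Finset.mul_sum, Finset.mul_sum, Finset.sum_mul]
      refine sum_congr rfl fun z _ => ?_
      split_ifs
      · ring
      · ring
    · simp
  rw [sum_congr rfl fun x _ => h1 x, sum_swap Sl h, Finset.mul_sum]
  refine sum_congr rfl fun a _ => ?_
  simp only [h]
  rw [Finset.sum_ite_eq']
  simp only [mem_univ, if_true, mul_ite, mul_zero]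

theorem sum_Q_snd (o' : Om k L m) :
    ∑ o, S.Q u Sl e o o' = (S.next u Sl e β η').P o' := by
  classical
  have h := S.sum_Q_left (u := u) (Sl := Sl) (e := e) o' (fun _ => 1)
  simp only [mul_one] at h
  rw [h]
  unfold P next w'
  dsimp only
  rw [mul_comm]
  unfold P
  rfl

open Classical in
theorem w'_nonneg (hw : ∀ c, 0 ≤ S.w c) (c' : Cell k L m) : 0 ≤ S.w' u Sl e c' :=
  sum_nonneg fun o _ => by split_ifs; exacts [S.P_nonneg hw o, le_rfl]

theorem sum_w' (hm : 0 < m) (h1 : ∑ c, S.w c = 1) : ∑ c, S.w' u Sl e c = 1 := by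
  classical
  unfold w'
  rw [Finset.sum_comm]
  have : ∀ o : Om k L m, ∑ c, (if S.sig u Sl e o = c then S.P o else 0) = S.P o := fun o => by
    rw [Finset.sum_ite_eq]; simp
  simp_rw [this]
  exact S.sum_P hm h1

open Classical in
theorem w'_mul_G' (hw : ∀ c, 0 ≤ S.w c) (c' : Cell k L m) (v : V) :
    S.w' u Sl e c' * S.G' u Sl e c' v =
      ∑ o, if S.sig u Sl e o = c' then S.P o * S.g1 u Sl o v else 0 := by
  unfold G'
  by_cases h : S.w' u Sl e c' = 0
  · rw [h, zero_mul]
    symm
    apply sum_eq_zero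
    intro o _
    have hz := (sum_eq_zero_iff_of_nonneg (s := Finset.univ)
      (f := fun o => if S.sig u Sl e o = c' then S.P o else 0)
      (fun o _ => by split_ifs; exacts [S.P_nonneg hw o, le_rfl])).mp
      (by unfold w' at h; exact h) o (mem_univ o)
    split_ifs with ho
    · simp only [ho, if_true] at hz
      rw [hz, zero_mul]
    · rfl
  · rw [mul_div_cancel₀ _ h]

/-- splitting of the random function at a mixed point -/
theorem g_mix (o : Om k L m) (y : Fin L → Fin m) (v : V) :
    S.g u (o.1, mix Sl o.2 y) v = S.g1 u Sl o v +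
      ∑ j ∈ univ \ Sl, (if S.H j o.1 = true then gv m u (y j) * S.η j v else 0) := by
  classical
  unfold g g1
  dsimp only
  rw [← Finset.sum_sdiff (Finset.subset_univ Sl), add_assoc]
  congr 1
  rw [add_comm]
  congr 1
  · refine sum_congr rfl fun j hj => ?_
    rw [mix_mem hj]
  · refine sum_congr rfl fun j hj => ?_
    rw [mix_notMem (mem_sdiff.mp hj).2]

/-- conditional expectation, before the injection -/
theorem ce0 (hw : ∀ c, 0 ≤ S.w c) (v : V) (o' : Om k L m) :
    ∑ o, S.Q u Sl e o o' * S.g u o v =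
      (S.next u Sl e β η').P o' * S.nextG u Sl e β η' ∅ o' v := by
  classical
  rw [sum_Q_left]
  have h1 : ∀ o : Om k L m, (if S.sig u Sl e o = o'.1 then
      S.P o * S.g u (o.1, mix Sl o.2 o'.2) v else 0) =
      (if S.sig u Sl e o = o'.1 then S.P o * S.g1 u Sl o v else 0) +
      (if S.sig u Sl e o = o'.1 then S.P o else 0) *
        ∑ j ∈ univ \ Sl, (if o'.1.2 j = true then gv m u (o'.2 j) * S.η j v else 0) := by
    intro o
    split_ifs with ho
    · rw [g_mix, mul_add]
      congr 2
      refine sum_congr rfl fun j _ => ?_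
      have : o'.1.2 j = S.H j o.1 := by rw [← ho]; rfl
      rw [this]
    · simp
  simp_rw [h1]
  rw [sum_add_distrib, ← w'_mul_G' hw, ← Finset.sum_mul]
  have hw' : ∑ o, (if S.sig u Sl e o = o'.1 then S.P o else 0) = S.w' u Sl e o'.1 := rfl
  have hP : (S.next u Sl e β η').P o' = S.w' u Sl e o'.1 * ((m : ℝ) ^ L)⁻¹ := rfl
  rw [hw', hP]
  unfold nextG
  rw [Finset.sum_empty, add_zero]
  ring

theorem dd0 (hm : 0 < m) (hw : ∀ c, 0 ≤ S.w c) {d : V → V → ℝ} (hg : DD S.P d (S.g u)) :
    DD (S.next u Sl e β η').P d (S.nextG u Sl e β η' ∅) :=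
  DD.joint (S.Q u Sl e) (S.Q_nonneg hw) (S.sum_Q_one hm) (fun o' => S.sum_Q_snd o')
    (fun v o' => S.ce0 hw v o') hg

end St

end Vale.Agent.P235.H265
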